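import Vale.Agent.P181.H303.Spec

/-!
P181: toolkit for `AH` and `Mono`.
-/

set_option autoImplicit false

namespace Vale.Agent.P181.H126

open Finset Vale.Agent.P181.H303

section lin

variable {W : Type*} [AddCommGroup W] [Module ℂ W]

theorem ah_of_fintype {G : Set W} {c : ℝ} {ι : Type*} [Fintype ι] (w : ι → ℂ) (g : ι → W)
    (hg : ∀ i, g i ∈ G) (hw : ∑ i, ‖w i‖ ≤ c) : ∑ i, w i • g i ∈ AH G c := by
  refine ⟨Fintype.card ι, fun i => w ((Fintype.equivFin ι).symm i),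
    fun i => g ((Fintype.equivFin ι).symm i), fun i => hg _, ?_, ?_⟩
  · rw [Equiv.sum_comp (Fintype.equivFin ι).symm (fun i => ‖w i‖)]
    exact hw
  · rw [Equiv.sum_comp (Fintype.equivFin ι).symm (fun i => w i • g i)]

theorem ah_mono {G : Set W} {c c' : ℝ} (h : c ≤ c') {x : W} (hx : x ∈ AH G c) : x ∈ AH G c' := by
  obtain ⟨m, w, g, h1, h2, h3⟩ := hx
  exact ⟨m, w, g, h1, h2.trans h, h3⟩

theorem ah_self {G : Set W} {x : W} (h : x ∈ G) : x ∈ AH G 1 :=
  ⟨1, fun _ => 1, fun _ => x, fun _ => h, by simp, by simp⟩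

theorem ah_trans {G G' : Set W} {c c' : ℝ} (hc' : 0 ≤ c') (h : ∀ g ∈ G, g ∈ AH G' c') {x : W}
    (hx : x ∈ AH G c) : x ∈ AH G' (c * c') := by
  obtain ⟨m, w, g, h1, h2, rfl⟩ := hx
  choose m' w' g' h1' h2' h3' using fun i => h (g i) (h1 i)
  have e : ∑ i, w i • g i =
      ∑ p : (Σ i : Fin m, Fin (m' i)), (w p.1 * w' p.1 p.2) • g' p.1 p.2 := by
    rw [Fintype.sum_sigma]
    refine Finset.sum_congr rfl fun i _ => ?_
    conv_lhs => rw [h3' i, Finset.smul_sum]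
    exact Finset.sum_congr rfl fun j _ => by rw [mul_smul]
  rw [e]
  refine ah_of_fintype _ _ (fun p => h1' _ _) ?_
  rw [Fintype.sum_sigma]
  calc ∑ i, ∑ j, ‖w i * w' i j‖ = ∑ i, ‖w i‖ * ∑ j, ‖w' i j‖ := by
        refine Finset.sum_congr rfl fun i _ => ?_
        rw [Finset.mul_sum]
        exact Finset.sum_congr rfl fun j _ => norm_mul _ _
    _ ≤ ∑ i, ‖w i‖ * c' :=
        Finset.sum_le_sum fun i _ => mul_le_mul_of_nonneg_left (h2' i) (norm_nonneg _)
    _ = (∑ i, ‖w i‖) * c' := by rw [Finset.sum_mul]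
    _ ≤ c * c' := mul_le_mul_of_nonneg_right h2 hc'

end lin

section alg

variable {A : Type*} [CommRing A] [Algebra ℂ A]

theorem ah_mul {G G' H : Set A} {c c' : ℝ} (hc : 0 ≤ c)
    (h : ∀ g ∈ G, ∀ g' ∈ G', g * g' ∈ H) {x x' : A} (hx : x ∈ AH G c) (hx' : x' ∈ AH G' c') :
    x * x' ∈ AH H (c * c') := by
  obtain ⟨m, w, g, h1, h2, rfl⟩ := hx
  obtain ⟨m', w', g', h1', h2', rfl⟩ := hx'
  have e : (∑ i, w i • g i) * (∑ i, w' i • g' i) =
      ∑ p : Fin m × Fin m', (w p.1 * w' p.2) • (g p.1 * g' p.2) := by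
    rw [Finset.sum_mul_sum, Fintype.sum_prod_type]
    refine Finset.sum_congr rfl fun i _ => Finset.sum_congr rfl fun j _ => ?_
    rw [smul_mul_smul_comm]
  rw [e]
  refine ah_of_fintype _ _ (fun p => h _ (h1 _) _ (h1' _)) ?_
  rw [Fintype.sum_prod_type]
  calc ∑ i, ∑ j, ‖w i * w' j‖ = (∑ i, ‖w i‖) * ∑ j, ‖w' j‖ := by
        rw [Finset.sum_mul_sum]
        exact Finset.sum_congr rfl fun i _ => Finset.sum_congr rfl fun j _ => norm_mul _ _
    _ ≤ c * c' := mul_le_mul h2 h2' (Finset.sum_nonneg fun _ _ => norm_nonneg _) hc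

variable {s : ℕ} (y : Fin s → A)

omit [Algebra ℂ A] in
theorem mono_mul {m m' : ℕ} {x x' : A} (hx : x ∈ Mono y m) (hx' : x' ∈ Mono y m') :
    x * x' ∈ Mono y (m + m') := by
  obtain ⟨α, h, rfl⟩ := hx
  obtain ⟨β, h', rfl⟩ := hx'
  refine ⟨fun i => α i + β i, by rw [Finset.sum_add_distrib, h, h'], ?_⟩
  rw [← Finset.prod_mul_distrib]
  exact Finset.prod_congr rfl fun i _ => by rw [pow_add]

omit [Algebra ℂ A] in
theorem one_mem_mono : (1 : A) ∈ Mono y 0 := ⟨fun _ => 0, by simp, by simp⟩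

omit [Algebra ℂ A] in
theorem self_mem_mono (i : Fin s) : y i ∈ Mono y 1 := by
  refine ⟨fun j => if j = i then 1 else 0, by simp, ?_⟩
  rw [Finset.prod_eq_single i]
  · simp
  · intro j _ hj
    simp [hj]
  · simp

omit [Algebra ℂ A] in
theorem pow_mem_mono (i : Fin s) (m : ℕ) : y i ^ m ∈ Mono y m := by
  refine ⟨fun j => if j = i then m else 0, by simp, ?_⟩
  rw [Finset.prod_eq_single i]
  · simp
  · intro j _ hj
    simp [hj]
  · simp

omit [Algebra ℂ A] in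
theorem mono_pow_sub {g m : ℕ} {x : A} (hx : x ∈ Mono (fun i => y i ^ g) m) :
    x ∈ Mono y (m * g) := by
  obtain ⟨α, h, rfl⟩ := hx
  refine ⟨fun i => α i * g, by rw [← Finset.sum_mul, h], ?_⟩
  exact Finset.prod_congr rfl fun i _ => by rw [← pow_mul, mul_comm]

/-- short name -/
def AM (m : ℕ) : Set A := AH (Mono y m) 1

theorem am_mul {m m' : ℕ} {x x' : A} (hx : x ∈ AM y m) (hx' : x' ∈ AM y m') :
    x * x' ∈ AM y (m + m') := by
  have h := ah_mul (H := Mono y (m + m')) zero_le_one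
    (fun g hg g' hg' => mono_mul y hg hg') hx hx'
  rw [mul_one] at h
  exact h

theorem am_one : (1 : A) ∈ AM y 0 := ah_self (one_mem_mono y)

theorem am_pow {m : ℕ} {x : A} (hx : x ∈ AM y m) (k : ℕ) : x ^ k ∈ AM y (m * k) := by
  induction k with
  | zero => simpa using am_one y
  | succ k ih =>
    rw [pow_succ, Nat.mul_succ]
    exact am_mul y ih hx

theorem am_prod {ι : Type*} (S : Finset ι) (l : ι → A) (μ : ι → ℕ) (hl : ∀ t, l t ∈ AM y 1) :
    ∏ t ∈ S, l t ^ μ t ∈ AM y (∑ t ∈ S, μ t) := by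
  classical
  induction S using Finset.induction_on with
  | empty => simpa using am_one y
  | insert t S ht ih =>
    rw [Finset.prod_insert ht, Finset.sum_insert ht]
    refine am_mul y ?_ ih
    have := am_pow y (hl t) (μ t)
    rwa [one_mul] at this

theorem am_lin (v : Fin s → ℂ) (hv : ∑ j, ‖v j‖ ≤ 1) : ∑ j, v j • y j ∈ AM y 1 :=
  ah_of_fintype v y (fun j => self_mem_mono y j) hv

theorem am_sub {g m : ℕ} {x : A} (hx : x ∈ AM (fun i => y i ^ g) m) : x ∈ AM y (m * g) := by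
  obtain ⟨n, w, h, h1, h2, h3⟩ := hx
  exact ⟨n, w, h, fun i => mono_pow_sub y (h1 i), h2, h3⟩

end alg

end Vale.Agent.P181.H126
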