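import Vale.Agent.P181.H126.AHKit

/-!
P181, row PM: the quantitative power map black box from V, TI, AR, KEY.
-/

set_option autoImplicit false

namespace Vale.Agent.P181.H126

open Finset Vale.Agent.P181.H303

/-- One scale: extraction of `φ ^ (s q - 1) * f2 ^ q * h`. -/
theorem scale (hTI : RowTI) (hAR : RowAR) (s : ℕ) (hs : 1 ≤ s) (L : Fin (TT s) → Fin s → ℂ)
    (hL : ∀ t, ∑ j, ‖L t j‖ ≤ 1)
    (hL2 : ∀ S : Finset (Fin (TT s)), s ≤ S.card → ∀ j : Fin s, ∃ β : Fin (TT s) → ℂ,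
      (∀ t, t ∉ S → β t = 0) ∧ ∑ t, ‖β t‖ ≤ vv s ∧
      ∀ i : Fin s, ∑ t, β t * L t i = if i = j then 1 else 0)
    (q d k N : ℕ) (hq : 1 ≤ q) (hd : (s - 1) * (s - 1) + TT s * q ≤ d) (hk : s * d ≤ k)
    (hN : (s - 1) * (s - 1) + N = q * k) (hN2 : (d + TT s) * (s * q) ≤ N)
    (A W : Type) [CommRing A] [Algebra ℂ A] [AddCommGroup W] [Module ℂ W]
    (T : MultilinearMap ℂ (fun _ : Fin s => A) W) (z : Fin s → A)
    (P : Fin s → A) (hP : ∀ i, P i ∈ Mono z (q * k)) :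
    T P ∈ AH {x | ∃ (φ f2 : A) (h : Fin s → A), φ ∈ AM z d ∧ f2 ∈ AM z (k - s * d) ∧
      (∀ i, h i ∈ AM z d) ∧ x = T (fun i => φ ^ (s * q - 1) * f2 ^ q * h i)}
      ((vv s : ℝ) ^ (s * (s * s) * N)) := by
  have h1 := hTI s hs L hL hL2 A W T z N P (fun i => by rw [hN]; exact hP i)
  have h2 := ah_trans (G' := {x | ∃ (φ f2 : A) (h : Fin s → A), φ ∈ AM z d ∧
      f2 ∈ AM z (k - s * d) ∧
      (∀ i, h i ∈ AM z d) ∧ x = T (fun i => φ ^ (s * q - 1) * f2 ^ q * h i)})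
      (c' := 1) zero_le_one ?_ h1
  · rwa [mul_one] at h2
  · rintro x ⟨μ, Q, hμ, hQ, rfl⟩
    obtain ⟨α, β, ρ, e1, e2, e3, e4⟩ := hAR s q d k (TT s) hs hq hd hk μ (by omega)
      (by rw [hμ]; exact hN2)
    apply ah_self
    refine ⟨∏ t, (∑ j, L t j • z j) ^ α t, ∏ t, (∑ j, L t j • z j) ^ β t,
      fun i => (∏ t, (∑ j, L t j • z j) ^ ρ t) * Q i, ?_, ?_, ?_, ?_⟩
    · have := am_prod z univ _ α (fun t => am_lin z (L t) (hL t))
      rwa [e2] at this
    · have := am_prod z univ _ β (fun t => am_lin z (L t) (hL t))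
      rwa [show ∑ t, β t = k - s * d by omega] at this
    · intro i
      have := am_mul z (am_prod z univ _ ρ (fun t => am_lin z (L t) (hL t))) (ah_self (hQ i))
      rwa [e4] at this
    · congr 1
      funext i
      rw [← mul_assoc, ← Finset.prod_pow, ← Finset.prod_pow, ← Finset.prod_mul_distrib,
        ← Finset.prod_mul_distrib]
      congr 1
      refine Finset.prod_congr rfl fun t _ => ?_
      rw [e1 t, ← pow_mul, ← pow_mul, ← pow_add, ← pow_add]
      congr 1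
      ring

theorem TT_le (s : ℕ) (hs : 1 ≤ s) : TT s ≤ s * s := by
  unfold TT
  obtain ⟨r, rfl⟩ : ∃ r, s = r + 1 := ⟨s - 1, by omega⟩
  simp only [Nat.add_sub_cancel]
  nlinarith

theorem cost (s q N : ℕ) (hs : 1 ≤ s) (hN : N ≤ 24 * (q * q * s ^ 5)) :
    ((vv s : ℝ) ^ (s * (s * s) * N)) ≤ Real.exp (288 * (q ^ 2 * s ^ 11)) := by
  have hs0 : (0 : ℝ) < s := by exact_mod_cast hs
  have h1 : ((s * TT s : ℕ) : ℝ) ≤ Real.exp (3 * s) := by
    have h2 : ((s * TT s : ℕ) : ℝ) ≤ (s : ℝ) ^ 3 := by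
      have := Nat.mul_le_mul_left s (TT_le s hs)
      have h3 : ((s * TT s : ℕ) : ℝ) ≤ ((s * (s * s) : ℕ) : ℝ) := by exact_mod_cast this
      refine h3.trans (le_of_eq ?_)
      push_cast
      ring
    have h3 : (s : ℝ) ≤ Real.exp s := by
      have := Real.add_one_le_exp (s : ℝ)
      linarith
    calc ((s * TT s : ℕ) : ℝ) ≤ (s : ℝ) ^ 3 := h2
      _ ≤ (Real.exp s) ^ 3 := pow_le_pow_left₀ hs0.le h3 3
      _ = Real.exp (3 * s) := by rw [← Real.exp_nat_mul]; norm_num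
  have h2 : (vv s : ℝ) ≤ Real.exp (12 * s ^ 3) := by
    have e : (vv s : ℝ) = ((s * TT s : ℕ) : ℝ) ^ (4 * (s * s)) := by
      unfold vv
      push_cast
      ring
    rw [e]
    calc ((s * TT s : ℕ) : ℝ) ^ (4 * (s * s)) ≤ (Real.exp (3 * s)) ^ (4 * (s * s)) :=
          pow_le_pow_left₀ (Nat.cast_nonneg _) h1 _
      _ = Real.exp (12 * s ^ 3) := by
          rw [← Real.exp_nat_mul]
          congr 1
          push_cast
          ring
  calc ((vv s : ℝ) ^ (s * (s * s) * N)) ≤ (Real.exp (12 * s ^ 3)) ^ (s * (s * s) * N) :=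
        pow_le_pow_left₀ (Nat.cast_nonneg _) h2 _
    _ = Real.exp (12 * s ^ 6 * N) := by
        rw [← Real.exp_nat_mul]
        congr 1
        push_cast
        ring
    _ ≤ Real.exp (288 * (q ^ 2 * s ^ 11)) := by
        apply Real.exp_le_exp.mpr
        have h3 : (N : ℝ) ≤ 24 * (q * q * s ^ 5) := by exact_mod_cast hN
        calc (12 : ℝ) * s ^ 6 * N ≤ 12 * s ^ 6 * (24 * (q * q * s ^ 5)) :=
              mul_le_mul_of_nonneg_left h3 (by positivity)
          _ = 288 * (q ^ 2 * s ^ 11) := by ring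

theorem cost2 (s q : ℕ) (hs : 1 ≤ s) (hq : 1 ≤ q) :
    ((s : ℝ) ^ s * ((s : ℝ) + 1) ^ (s * q)) ≤ Real.exp (2 * (q ^ 2 * s ^ 11)) := by
  have hs0 : (0 : ℝ) < s := by exact_mod_cast hs
  have h3 : (s : ℝ) + 1 ≤ Real.exp s := Real.add_one_le_exp (s : ℝ)
  have h4 : (s : ℝ) ≤ Real.exp s := by linarith
  calc ((s : ℝ) ^ s * ((s : ℝ) + 1) ^ (s * q)) ≤ (Real.exp s) ^ s * (Real.exp s) ^ (s * q) :=
        mul_le_mul (pow_le_pow_left₀ hs0.le h4 _) (pow_le_pow_left₀ (by positivity) h3 _)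
          (by positivity) (by positivity)
    _ = Real.exp (s * s + s * q * s) := by
        rw [← Real.exp_nat_mul, ← Real.exp_nat_mul, ← Real.exp_add]
        congr 1
        push_cast
        ring
    _ ≤ Real.exp (2 * (q ^ 2 * s ^ 11)) := by
        apply Real.exp_le_exp.mpr
        have hs1 : (1 : ℝ) ≤ s := by exact_mod_cast hs
        have hq1 : (1 : ℝ) ≤ q := by exact_mod_cast hq
        have h5 : (s : ℝ) ^ 2 ≤ s ^ 11 := pow_le_pow_right₀ hs1 (by norm_num)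
        have h6 : (q : ℝ) ≤ q ^ 2 := by nlinarith
        have h7 : (1 : ℝ) ≤ q ^ 2 := by nlinarith
        have h8 : (s : ℝ) ^ 2 ≤ q ^ 2 * s ^ 11 :=
          h5.trans (le_mul_of_one_le_left (by positivity) h7)
        have h9 : (q : ℝ) * s ^ 2 ≤ q ^ 2 * s ^ 11 := mul_le_mul h6 h5 (by positivity) (by positivity)
        nlinarith

theorem rowPM (hV : RowV) (hTI : RowTI) (hAR : RowAR) (hKEY : RowKEY) : RowPM := by
  refine ⟨600, fun s q a hs hq ha A W _ _ _ _ T hT y => ?_⟩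
  obtain ⟨L, hL, hL2⟩ := hV s hs
  -- parameters
  obtain ⟨d, hd⟩ : ∃ d, d = (s - 1) * (s - 1) + TT s * q := ⟨_, rfl⟩
  obtain ⟨k, hk⟩ : ∃ k, k = 8 * (q * s ^ 5) := ⟨_, rfl⟩
  have hs5 : 1 ≤ s ^ 5 := Nat.one_le_pow _ _ hs
  have hkpos : 0 < k := by rw [hk]; positivity
  have hka : 2 * k ≤ a := by
    have h1 : q * s ^ 5 ≤ q * s ^ 6 :=
      Nat.mul_le_mul_left q (Nat.pow_le_pow_right hs (by norm_num))
    omega
  obtain ⟨g, hg⟩ : ∃ g, g = (a - k) / k := ⟨_, rfl⟩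
  have hg1 : g * k ≤ a - k := by rw [hg]; exact Nat.div_mul_le_self _ _
  have hg2 : a - k < (g + 1) * k := by
    rw [hg, add_mul, one_mul]
    exact Nat.lt_div_mul_add hkpos
  obtain ⟨k2, hk2⟩ : ∃ k2, k2 = a - g * k := ⟨_, rfl⟩
  have hk2a : g * k + k2 = a := by omega
  have hk2b : k ≤ k2 := by omega
  have hk2c : k2 ≤ 2 * k := by
    rw [add_mul, one_mul] at hg2
    omega
  have hTTs := TT_le s hs
  have hss1 : (s - 1) * (s - 1) ≤ s * s := Nat.mul_le_mul (by omega) (by omega)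
  have hd2 : d ≤ 2 * (q * (s * s)) := by
    have h1 : TT s * q ≤ s * s * q := Nat.mul_le_mul_right q hTTs
    have h2 : s * s ≤ q * (s * s) := Nat.le_mul_of_pos_left _ hq
    nlinarith
  have hs35 : s ^ 3 ≤ s ^ 5 := Nat.pow_le_pow_right hs (by norm_num)
  have hs25 : s ^ 2 ≤ s ^ 5 := Nat.pow_le_pow_right hs (by norm_num)
  have hsdk : s * d ≤ k := by
    calc s * d ≤ s * (2 * (q * (s * s))) := Nat.mul_le_mul_left s hd2
      _ = 2 * (q * s ^ 3) := by ring
      _ ≤ 2 * (q * s ^ 5) := Nat.mul_le_mul_left 2 (Nat.mul_le_mul_left q hs35)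
      _ ≤ k := by rw [hk]; omega
  have hqk : 8 * (q * q * s ^ 5) = q * k := by rw [hk]; ring
  have hbig : (s - 1) * (s - 1) + (d + TT s) * (s * q) ≤ q * k := by
    have h1 : (d + TT s) * (s * q) ≤ (2 * (q * (s * s)) + s * s) * (s * q) :=
      Nat.mul_le_mul_right _ (Nat.add_le_add hd2 hTTs)
    have h2 : (2 * (q * (s * s)) + s * s) * (s * q) = 2 * (q * q * s ^ 3) + q * s ^ 3 := by ring
    have h3 : q * s ^ 3 ≤ q * q * s ^ 5 := Nat.mul_le_mul (Nat.le_mul_of_pos_left _ hq) hs35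
    have h4 : q * q * s ^ 3 ≤ q * q * s ^ 5 := Nat.mul_le_mul_left _ hs35
    have h5 : s * s ≤ q * q * s ^ 5 := by
      calc s * s = s ^ 2 := by ring
        _ ≤ s ^ 5 := hs25
        _ ≤ q * q * s ^ 5 := Nat.le_mul_of_pos_left _ (Nat.mul_pos hq hq)
    omega
  have hqk2 : q * k ≤ q * k2 := Nat.mul_le_mul_left q hk2b
  have hqk3 : q * k2 ≤ 2 * (q * k) := by
    calc q * k2 ≤ q * (2 * k) := Nat.mul_le_mul_left q hk2c
      _ = 2 * (q * k) := by ring
  obtain ⟨N1, hN1⟩ : ∃ N, (s - 1) * (s - 1) + N = q * k := ⟨q * k - (s - 1) * (s - 1), by omega⟩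
  obtain ⟨N2, hN2⟩ : ∃ N, (s - 1) * (s - 1) + N = q * k2 :=
    ⟨q * k2 - (s - 1) * (s - 1), by omega⟩
  -- target
  obtain ⟨G, hG⟩ : ∃ G : Set W, G = {x | ∃ f ∈ AH (Mono y a) 1, x = T (fun _ => f ^ q)} :=
    ⟨_, rfl⟩
  rw [← hG]
  -- last step
  have step3 : ∀ (φ f2 : A) (h : Fin s → A), φ ∈ AM y (d * g + d) →
      f2 ∈ AM y ((k - s * d) * g + (k2 - s * d)) → (∀ i, h i ∈ AM y (d * g + d)) →
      T (fun i => f2 ^ q * (φ ^ (s * q - 1) * h i)) ∈ AH G
        ((s : ℝ) ^ s * ((s : ℝ) + 1) ^ (s * q)) := by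
    intro φ f2 h h1 h2 h3
    have := hKEY s q (d * g + d) ((k - s * d) * g + (k2 - s * d)) hs hq A W T hT y φ h1 f2 h2 h h3
    have e : s * (d * g + d) + ((k - s * d) * g + (k2 - s * d)) = a := by
      obtain ⟨u, hu⟩ : ∃ u, k = s * d + u := ⟨k - s * d, by omega⟩
      obtain ⟨v, hv⟩ : ∃ v, k2 = s * d + v := ⟨k2 - s * d, by omega⟩
      rw [hu, hv, Nat.add_sub_cancel_left, Nat.add_sub_cancel_left, ← hk2a, hu, hv]
      ring
    rw [e, ← hG] at this
    exact this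
  -- second step
  have step2 : ∀ (φ f2 : A) (h : Fin s → A), φ ∈ AM y (d * g) →
      f2 ∈ AM y ((k - s * d) * g) → (∀ i, h i ∈ AM y (d * g)) →
      T (fun i => (φ ^ (s * q - 1) * f2 ^ q * h i) * y i ^ (q * k2)) ∈ AH G
        ((vv s : ℝ) ^ (s * (s * s) * N2) * ((s : ℝ) ^ s * ((s : ℝ) + 1) ^ (s * q))) := by
    intro φ f2 h h1 h2 h3
    have h4 := scale hTI hAR s hs L hL hL2 q d k2 N2 hq hd.ge (by omega) hN2 (by omega) A W
      (T.compLinearMap (fun i => LinearMap.mulLeft ℂ (φ ^ (s * q - 1) * f2 ^ q * h i))) y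
      (fun i => y i ^ (q * k2)) (fun i => pow_mem_mono y i _)
    refine ah_trans (by positivity) ?_ h4
    rintro x ⟨φ', f2', h', h1', h2', h3', rfl⟩
    have h5 := step3 (φ * φ') (f2 * f2') (fun i => h i * h' i) (am_mul y h1 h1')
      (am_mul y h2 h2') (fun i => am_mul y (h3 i) (h3' i))
    have e : (T.compLinearMap (fun i => LinearMap.mulLeft ℂ
        (φ ^ (s * q - 1) * f2 ^ q * h i))) (fun i => φ' ^ (s * q - 1) * f2' ^ q * h' i) =
        T (fun i => (f2 * f2') ^ q * ((φ * φ') ^ (s * q - 1) * (h i * h' i))) := by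
      rw [MultilinearMap.compLinearMap_apply]
      congr 1
      funext i
      rw [LinearMap.mulLeft_apply, mul_pow, mul_pow]
      ring
    rw [e]
    exact h5
  -- first step
  have h6 := scale hTI hAR s hs L hL hL2 q d k N1 hq hd.ge hsdk hN1 (by omega) A W
      (T.compLinearMap (fun i => LinearMap.mulRight ℂ (y i ^ (q * k2)))) (fun i => y i ^ g)
      (fun i => (y i ^ g) ^ (q * k)) (fun i => pow_mem_mono (fun i => y i ^ g) i _)
  have e : (T.compLinearMap (fun i => LinearMap.mulRight ℂ (y i ^ (q * k2))))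
      (fun i => (y i ^ g) ^ (q * k)) = T (fun i => y i ^ (q * a)) := by
    rw [MultilinearMap.compLinearMap_apply]
    congr 1
    funext i
    rw [LinearMap.mulRight_apply, ← pow_mul, ← pow_add]
    congr 1
    rw [← hk2a]
    ring
  rw [e] at h6
  have h7 := ah_trans (G' := G)
    (c' := (vv s : ℝ) ^ (s * (s * s) * N2) * ((s : ℝ) ^ s * ((s : ℝ) + 1) ^ (s * q)))
    (by positivity) ?_ h6
  · refine ah_mono ?_ h7
    have c1 := cost s q N1 hs (by omega)
    have c2 := cost s q N2 hs (by omega)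
    have c3 := cost2 s q hs hq
    calc (vv s : ℝ) ^ (s * (s * s) * N1) * ((vv s : ℝ) ^ (s * (s * s) * N2) *
          ((s : ℝ) ^ s * ((s : ℝ) + 1) ^ (s * q))) ≤
        Real.exp (288 * (q ^ 2 * s ^ 11)) * (Real.exp (288 * (q ^ 2 * s ^ 11)) *
          Real.exp (2 * (q ^ 2 * s ^ 11))) :=
          mul_le_mul c1 (mul_le_mul c2 c3 (by positivity) (by positivity)) (by positivity)
            (by positivity)
      _ = Real.exp (578 * (q ^ 2 * s ^ 11)) := by
          rw [← Real.exp_add, ← Real.exp_add]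
          congr 1
          ring
      _ ≤ Real.exp ((600 : ℕ) * (q ^ 2 * s ^ 12)) := by
          apply Real.exp_le_exp.mpr
          have hs1 : (1 : ℝ) ≤ s := by exact_mod_cast hs
          have h8 : (s : ℝ) ^ 11 ≤ s ^ 12 := pow_le_pow_right₀ hs1 (by norm_num)
          have h9 : (q : ℝ) ^ 2 * s ^ 11 ≤ q ^ 2 * s ^ 12 :=
            mul_le_mul_of_nonneg_left h8 (by positivity)
          have h10 : (0 : ℝ) ≤ (q : ℝ) ^ 2 * s ^ 11 := by positivity
          push_cast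
          nlinarith
  · rintro x ⟨φ, f2, h, h1, h2, h3, rfl⟩
    have h8 := step2 φ f2 h (am_sub y h1) (am_sub y h2) (fun i => am_sub y (h3 i))
    rw [MultilinearMap.compLinearMap_apply]
    exact h8

end Vale.Agent.P181.H126
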